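import Crest.Agent.R175.P.Defs
import Crest.Agent.R175.Cox.PF
import Crest.Agent.R175.Cox.Mats

/-!
# Row 175, block PF: Perron-Frobenius trichotomy, breadth-first orders, perturbation of thresholds
-/

set_option autoImplicit false

open Finset Crest.GroupTheory Filter Topology

namespace Crest.Agent.R175.P

variable {S : Type} [Fintype S] [DecidableEq S] (M : CoxeterMatrix S)

omit [Fintype S] in
theorem pf_adj_self (s : S) : adj M s s = 0 := by simp [adj]

omit [Fintype S] in
theorem adj_of_ne {s t : S} (h : s ≠ t) : adj M s t = - Cox.Cm M s t := by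
  simp [adj, h, Cox.Cm]

omit [Fintype S] in
theorem pf_adj_symm (s t : S) : adj M s t = adj M t s := by
  by_cases h : s = t
  · rw [h]
  · rw [adj_of_ne M h, adj_of_ne M (Ne.symm h), Cox.Cm_symm]

omit [Fintype S] in
theorem pf_adj_eq_zero_iff {s t : S} (h : s ≠ t) : adj M s t = 0 ↔ M s t = 2 := by
  rw [adj_of_ne M h]
  refine ⟨fun h0 => ?_, fun h2 => by rw [Cox.Cm_of_two M h2, neg_zero]⟩
  by_contra h2
  have := Cox.Cm_le_neg_one M h h2
  linarith

omit [Fintype S] in
theorem adj_zero_or (s t : S) : adj M s t = 0 ∨ 1 ≤ adj M s t := by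
  by_cases h : s = t
  · left; rw [h, pf_adj_self]
  by_cases h2 : M s t = 2
  · left; exact (pf_adj_eq_zero_iff M h).2 h2
  · right; rw [adj_of_ne M h]; linarith [Cox.Cm_le_neg_one M h h2]

omit [Fintype S] in
theorem pf_adj_nonneg (s t : S) : 0 ≤ adj M s t := by
  rcases adj_zero_or M s t with h | h <;> linarith

omit [Fintype S] in
theorem pf_comm_of_adj {s t : S} (h : s ≠ t) (h0 : adj M s t = 0) : σ M s * σ M t = σ M t * σ M s := by
  have h2 := (pf_adj_eq_zero_iff M h).1 h0
  have := Cox.braid_gen M s t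
  rw [h2] at this
  simpa [Cox.altP] using this

/-- restriction to `T` -/
noncomputable def pfRes (T : Finset S) (c : S → ℝ) (j : S) : ℝ := if j ∈ T then c j else 0

omit [Fintype S] in
theorem pfRes_supp (T : Finset S) (c : S → ℝ) : Cox.Supp (T : Set S) (pfRes T c) := fun i hi => by
  simp only [pfRes]; rw [if_neg (by simpa using hi)]

theorem Car_eq {T : Finset S} (c : S → ℝ) {s : S} (hs : s ∈ T) :
    Car M T c s = ∑ j, Cox.Cm M s j * pfRes T c j := by
  have e1 : ∑ j, Cox.Cm M s j * pfRes T c j = ∑ j ∈ T, Cox.Cm M s j * c j := by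
    rw [← Finset.sum_subset (Finset.subset_univ T)]
    · exact Finset.sum_congr rfl fun j hj => by rw [pfRes, if_pos hj]
    · intro j _ hj; rw [pfRes, if_neg hj, mul_zero]
  rw [e1, Car, ← Finset.add_sum_erase _ _ hs, ← Finset.add_sum_erase _ _ hs, pf_adj_self, Cox.Cm_self,
    zero_mul, zero_add, sub_eq_add_neg, ← Finset.sum_neg_distrib]
  congr 1
  refine Finset.sum_congr rfl fun j hj => ?_
  rw [adj_of_ne M (Finset.ne_of_mem_erase hj).symm]; ring

theorem qf_res (T : Finset S) (c : S → ℝ) :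
    Cox.qf M (pfRes T c) = ∑ s ∈ T, c s * Car M T c s := by
  rw [Cox.qf, ← Finset.sum_subset (Finset.subset_univ T)]
  · exact Finset.sum_congr rfl fun j hj => by rw [Car_eq M c hj, pfRes, if_pos hj]
  · intro j _ hj; rw [pfRes, if_neg hj, zero_mul]

theorem pf_finT_iff_pd (U : Finset S) : FinT M U ↔ Cox.PD M (U : Set S) := by
  constructor
  · intro h x hx h0
    have e : pfRes U x = x := funext fun j => by
      rw [pfRes]; split_ifs with hj
      · rfl
      · exact (hx j (by simpa using hj)).symm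
    rw [← e, qf_res]
    refine h x ?_
    by_contra hn
    refine h0 (funext fun j => ?_)
    by_cases hj : j ∈ U
    · by_contra hx0; exact hn ⟨j, hj, hx0⟩
    · exact hx j (by simpa using hj)
  · rintro h x ⟨u, hu, hx⟩
    rw [← qf_res]
    refine h _ (pfRes_supp U x) fun h0 => hx ?_
    have := congrFun h0 u
    rwa [pfRes, if_pos hu] at this

theorem pf_finT_mono {U U' : Finset S} (hU : U' ⊆ U) (h : FinT M U) : FinT M U' :=
  (pf_finT_iff_pd M U').2 (((pf_finT_iff_pd M U).1 h).mono (by exact_mod_cast hU))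

omit [Fintype S] in
theorem Cnt.conn {T : Finset S} (h : Cnt M T) : Cox.Conn M (T : Set S) := by
  classical
  intro P hP hne hcl
  have hcl' : ∀ s ∈ T.filter (· ∈ P), ∀ t ∈ T, adj M s t ≠ 0 → t ∈ T.filter (· ∈ P) := by
    intro s hs t ht hst
    refine Finset.mem_filter.2 ⟨ht, ?_⟩
    by_cases e : s = t
    · exact e ▸ (Finset.mem_filter.1 hs).2
    · exact hcl s (Finset.mem_filter.1 hs).2 t ht fun h2 => hst ((pf_adj_eq_zero_iff M e).2 h2)
  rcases h (T.filter (· ∈ P)) (Finset.filter_subset _ _) hcl' with h1 | h1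
  · obtain ⟨x, hx⟩ := hne
    have : x ∈ T.filter (· ∈ P) := Finset.mem_filter.2 ⟨hP hx, hx⟩
    rw [h1] at this
    simp at this
  · intro x hx
    have : x ∈ T.filter (· ∈ P) := by rw [h1]; exact hx
    exact (Finset.mem_filter.1 this).2

omit [Fintype S] in
theorem finT_empty : FinT M ∅ := by
  rintro x ⟨u, hu, -⟩
  simp at hu

omit [Fintype S] in
theorem finT_singleton (s : S) : FinT M {s} := by
  rintro x ⟨u, hu, hx⟩
  rw [Finset.mem_singleton] at hu
  subst hu
  rw [Finset.sum_singleton, Car, Finset.sum_singleton, pf_adj_self, zero_mul, sub_zero]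
  have := mul_self_pos.2 hx
  linarith

theorem pf_tri {T : Finset S} (hc : Cnt M T) (hn : ¬ FinT M T) :
    2 ≤ T.card ∧ ∃ (y : S → ℝ) (μ : ℝ), (∀ s, 0 < y s) ∧ μ ≤ 0 ∧
      (∀ s ∈ T, Car M T y s = μ * y s) ∧ (μ = 0 → ∀ U ⊂ T, FinT M U) := by
  have hne : T.Nonempty := by
    rw [Finset.nonempty_iff_ne_empty]; rintro rfl; exact hn (finT_empty M)
  refine ⟨?_, ?_⟩
  · by_contra h
    have h1 : T.card = 1 := by have := hne.card_pos; omega
    obtain ⟨s, rfl⟩ := Finset.card_eq_one.1 h1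
    exact hn (finT_singleton M s)
  obtain ⟨lam, y, hy, hpos, heig, hmin⟩ :=
    Cox.exists_pf_pos M (U := (T : Set S)) (by exact_mod_cast hne) (hc.conn M)
  refine ⟨fun s => if s ∈ T then y s else 1, lam, fun s => ?_, ?_, fun s hs => ?_, fun h0 U hU => ?_⟩
  · beta_reduce
    split_ifs with hs
    · exact hpos s hs
    · exact one_pos
  · by_contra h
    exact hn ((pf_finT_iff_pd M T).2 (Cox.pd_of_lower (not_le.1 h) hmin))
  · have e : pfRes T (fun s => if s ∈ T then y s else 1) = y := funext fun j => by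
      rw [pfRes]; split_ifs with hj
      · rfl
      · exact (hy j (by simpa using hj)).symm
    rw [Car_eq M _ hs, e]
    beta_reduce
    rw [if_pos hs]
    exact heig s hs
  · refine (pf_finT_iff_pd M U).2 (Cox.pd_of_psd (hc.conn M) (fun x hx => ?_) (by exact_mod_cast hU))
    have := hmin x hx
    rwa [h0, zero_mul] at this

open Classical in
/-- balls around `r` in the diagram of `T` -/
noncomputable def pfBall (T : Finset S) (r : S) : ℕ → Finset S
  | 0 => {r}
  | n + 1 => pfBall T r n ∪ T.filter fun u => ∃ u' ∈ pfBall T r n, adj M u u' ≠ 0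

omit [Fintype S] in
theorem pfBall_subset {T : Finset S} {r : S} (hr : r ∈ T) (n : ℕ) : pfBall M T r n ⊆ T := by
  induction n with
  | zero => simpa [pfBall] using hr
  | succ n ih => exact Finset.union_subset ih (Finset.filter_subset _ _)

omit [Fintype S] in
theorem pfBall_cover {T : Finset S} (hc : Cnt M T) {r : S} (hr : r ∈ T) {u : S} (hu : u ∈ T) :
    ∃ n, u ∈ pfBall M T r n := by
  classical
  have hcl : ∀ s ∈ T.filter fun u => ∃ n, u ∈ pfBall M T r n, ∀ t ∈ T, adj M s t ≠ 0 →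
      t ∈ T.filter fun u => ∃ n, u ∈ pfBall M T r n := by
    intro s hs t ht hst
    obtain ⟨n, hn⟩ := (Finset.mem_filter.1 hs).2
    refine Finset.mem_filter.2 ⟨ht, n + 1, ?_⟩
    rw [pfBall]
    exact Finset.mem_union_right _ (Finset.mem_filter.2 ⟨ht, s, hn, by rwa [pf_adj_symm]⟩)
  rcases hc (T.filter fun u => ∃ n, u ∈ pfBall M T r n) (Finset.filter_subset _ _) hcl with h1 | h1
  · have : r ∈ T.filter fun u => ∃ n, u ∈ pfBall M T r n :=
      Finset.mem_filter.2 ⟨hr, 0, by simp [pfBall]⟩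
    rw [h1] at this
    simp at this
  · rw [← h1] at hu
    exact (Finset.mem_filter.1 hu).2

theorem pf_bfs {T : Finset S} (hc : Cnt M T) {r : S} (hr : r ∈ T) :
    ∃ ρ : S → ℕ, Function.Injective ρ ∧
      ∀ u ∈ T, u ≠ r → ρ r < ρ u ∧ ∃ u' ∈ T, adj M u u' ≠ 0 ∧ ρ u' < ρ u := by
  classical
  set N := Fintype.card S with hN
  let e : S ≃ Fin N := Fintype.equivFin S
  let d : S → ℕ := fun u => if h : ∃ n, u ∈ pfBall M T r n then Nat.find h else 0
  have hlt : ∀ a b : S, d a < d b → (e a : ℕ) + N * d a < (e b : ℕ) + N * d b := by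
    intro a b h
    have h1 := (e a).2
    have h2 : N * (d a + 1) ≤ N * d b := Nat.mul_le_mul_left _ h
    rw [Nat.mul_succ] at h2
    omega
  have hd : ∀ u n, u ∈ pfBall M T r n → d u ≤ n := by
    intro u n h
    have h' : ∃ n, u ∈ pfBall M T r n := ⟨n, h⟩
    simp only [d, dif_pos h']
    exact Nat.find_min' h' h
  refine ⟨fun u => (e u : ℕ) + N * d u, fun a b hab => ?_, fun u hu hur => ?_⟩
  · have h1 := congrArg (· % N) hab
    simp only [Nat.add_mul_mod_self_left, Nat.mod_eq_of_lt (e a).2, Nat.mod_eq_of_lt (e b).2] at h1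
    exact e.injective (Fin.ext h1)
  · have h' := pfBall_cover M hc hr hu
    have h1 : u ∈ pfBall M T r (d u) := by
      simp only [d, dif_pos h']; exact Nat.find_spec h'
    have h0 : d r = 0 := Nat.le_zero.1 (hd r 0 (by simp [pfBall]))
    obtain ⟨n, hn⟩ : ∃ n, d u = n + 1 := by
      refine Nat.exists_eq_succ_of_ne_zero fun h => hur ?_
      rw [h] at h1
      simpa [pfBall] using h1
    rw [hn, pfBall] at h1
    rcases Finset.mem_union.1 h1 with h2 | h2
    · have := hd u n h2; omega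
    obtain ⟨u', hu', ha⟩ := (Finset.mem_filter.1 h2).2
    have := hd u' n hu'
    exact ⟨hlt _ _ (by omega), u', pfBall_subset M hr n hu', ha, hlt _ _ (by omega)⟩

theorem pf_pert (U U₁ : Finset S) (ρ : S → ℕ) (sl : S → ℝ) (ε : ℝ) (hU : U₁ ⊆ U) (hsl : ∀ u, 0 ≤ sl u)
    (hε : 0 < ε) (h : ∀ u ∈ U₁, 0 < sl u ∨ ∃ u' ∈ U₁, adj M u u' ≠ 0 ∧ ρ u' < ρ u) :
    ∃ z : S → ℝ, (∀ u ∈ U₁, 0 < z u ∧ z u ≤ ε) ∧ (∀ u, u ∉ U₁ → z u = 0) ∧
      ∀ u ∈ U, Car M U z u ≤ sl u := by
  have h1 : ∀ᶠ e in 𝓝[>] (0 : ℝ), ∀ u, 0 < sl u → e < sl u / 2 := by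
    rw [eventually_all]
    intro u
    by_cases hu : 0 < sl u
    · have : ∀ᶠ e in 𝓝[>] (0 : ℝ), e < sl u / 2 := nhdsWithin_le_nhds (Iio_mem_nhds (half_pos hu))
      exact this.mono fun e he _ => he
    · exact Eventually.of_forall fun e hu' => absurd hu' hu
  have h2 : ∀ᶠ e in 𝓝[>] (0 : ℝ), e < ε := nhdsWithin_le_nhds (Iio_mem_nhds hε)
  obtain ⟨e, ⟨he1, he2⟩, he0⟩ := ((h1.and h2).and self_mem_nhdsWithin).exists
  have he0 : 0 < e := he0
  set z : S → ℝ := fun u => if u ∈ U₁ then e * (1 / 2) ^ ρ u else 0 with hz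
  have hz0 : ∀ u, 0 ≤ z u := fun u => by
    simp only [hz]; split_ifs
    · positivity
    · exact le_rfl
  have hz1 : ∀ u ∈ U₁, z u = e * (1 / 2) ^ ρ u := fun u hu => by simp only [hz, if_pos hu]
  have hze : ∀ u ∈ U₁, z u ≤ e := fun u hu => by
    rw [hz1 u hu]
    exact mul_le_of_le_one_right he0.le (pow_le_one₀ (by norm_num) (by norm_num))
  have hsum : ∀ u, 0 ≤ ∑ t ∈ U, adj M u t * z t := fun u =>
    Finset.sum_nonneg fun t _ => mul_nonneg (pf_adj_nonneg M u t) (hz0 t)
  refine ⟨z, fun u hu => ⟨by rw [hz1 u hu]; positivity, (hze u hu).trans he2.le⟩,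
    fun u hu => by simp only [hz, if_neg hu], fun u _ => ?_⟩
  rw [Car]
  by_cases hu : u ∈ U₁
  · rcases h u hu with h3 | ⟨u', hu', ha, hρ⟩
    · have := he1 u h3
      have := hze u hu
      have := hsum u
      linarith
    · have a1 : adj M u u' * z u' ≤ ∑ t ∈ U, adj M u t * z t :=
        Finset.single_le_sum (f := fun t => adj M u t * z t)
          (fun t _ => mul_nonneg (pf_adj_nonneg M u t) (hz0 t)) (hU hu')
      have a2 : 1 ≤ adj M u u' := (adj_zero_or M u u').resolve_left ha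
      have a3 : 2 * z u ≤ z u' := by
        rw [hz1 u hu, hz1 u' hu']
        have : (1 / 2 : ℝ) ^ ρ u ≤ (1 / 2) ^ (ρ u' + 1) :=
          pow_le_pow_of_le_one (by norm_num) (by norm_num) hρ
        rw [pow_succ] at this
        nlinarith
      have a4 : z u' ≤ adj M u u' * z u' := le_mul_of_one_le_left (hz0 u') a2
      have := hsl u
      linarith
  · have : z u = 0 := by simp only [hz, if_neg hu]
    have := hsum u
    have := hsl u
    linarith

/-- block PF -/
theorem pf : S_PF M :=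
  ⟨fun s t => ⟨pf_adj_symm M s t, adj_zero_or M s t, pf_comm_of_adj M⟩, fun _ _ hU h => pf_finT_mono M hU h,
    fun _ hc hn => pf_tri M hc hn, fun _ hc _ hr => pf_bfs M hc hr, pf_pert M⟩

end Crest.Agent.R175.P
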